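import Vale.Agent.P254.SP.H958.Cst
import Vale.Agent.P254.H721.Env

/-!
# One-variable facts for the combined commutator kernel (P254, block SP, helper455)

`Ps1 = (93/50) r' r'' - (57/100) w'` is the derivative of `(93/100) r'² - (57/100) w`, `w = r' + r r''`.
-/

set_option linter.all false

namespace Vale.Agent.P254.SP.H455

open Real Set Filter Topology
open Vale.Agent.P254.H156 (t lm nu r r1 r2)
open Vale.Agent.P254.SP448 (V Qd w1)
open Vale.Agent.P254.H721.Cert (eR1 eR2 eV eL cert2 envOK_nil ev_sub ev_add ev_mul ev_neg ev_c ev_m ev_r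
  ev_x ev_eR1 ev_eR2 ev_eV ev_eL tot)

/-- derivative of `(93/100) r'² - (57/100) w` -/
noncomputable def Ps1 (x : ℝ) : ℝ := 93 / 50 * (r1 x * r2 x) - 57 / 100 * w1 x

theorem e_m (x : ℝ) : H721.mm x = nu x := rfl
theorem e_r (x : ℝ) : H721.r x = r x := rfl
theorem e_V (x : ℝ) : H721.vv x = V x := rfl
theorem e_L (x : ℝ) : H721.L x = lm x := rfl
theorem e_r1 (x : ℝ) : H721.r1 x = r1 x := by rw [H721.r1_eq]; rfl
theorem e_r2 (x : ℝ) : H721.r2 x = r2 x := by
  rw [H721.r2_eq, SP448.r2_eq, add_comm (H721.vv x)]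
  rfl

/-! ### the restricted barrier `nu² - V ≤ 2 V²` for `4 ≤ x` -/

/-- barrier lemma on a half line -/
theorem barrier_bot' {f f' : ℝ → ℝ} {c₀ : ℝ} (h : ∀ x, HasDerivAt f (f' x) x)
    (hp : ∀ x ≤ c₀, f x < 0 → 0 ≤ f' x) {l : ℝ} (hl : 0 ≤ l) (h0 : Tendsto f atBot (𝓝 l)) {c : ℝ}
    (hc : c ≤ c₀) : 0 ≤ f c := by
  by_contra hneg
  push Not at hneg
  have hcont : Continuous f := continuous_iff_continuousAt.2 fun x => (h x).continuousAt
  -- some point to the left is above `f c / 2`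
  have hev : ∀ᶠ y in atBot, f c / 2 < f y := h0.eventually (lt_mem_nhds (by linarith))
  obtain ⟨y, hy1, hy2⟩ := (hev.and (eventually_le_atBot c)).exists
  -- last point `s` of `[y, c]` with `f s ≥ f c / 2`
  set T : Set ℝ := {z | z ∈ Icc y c ∧ f c / 2 ≤ f z} with hT
  have hyT : y ∈ T := ⟨⟨le_rfl, hy2⟩, hy1.le⟩
  have hbdd : BddAbove T := ⟨c, fun z hz => hz.1.2⟩
  have hTc : IsClosed T := by
    have : T = Icc y c ∩ {z | f c / 2 ≤ f z} := rfl
    rw [this]
    exact isClosed_Icc.inter (isClosed_le continuous_const hcont)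
  have hs : sSup T ∈ T := hTc.csSup_mem ⟨y, hyT⟩ hbdd
  set s := sSup T with hsdef
  have hsc : s < c := by
    rcases eq_or_lt_of_le hs.1.2 with h1 | h1
    · exfalso
      have := hs.2
      rw [h1] at this
      linarith
    · exact h1
  have h1 : ∀ z, s < z → z ≤ c → f z < f c / 2 := by
    intro z hz hzc
    by_contra hcon
    push Not at hcon
    have hzT : z ∈ T := ⟨⟨by linarith [hs.1.1], hzc⟩, hcon⟩
    have := le_csSup hbdd hzT
    linarith
  have hm : MonotoneOn f (Icc s c) := by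
    apply monotoneOn_of_deriv_nonneg (convex_Icc s c) hcont.continuousOn
      (fun z _ => (h z).differentiableAt.differentiableWithinAt)
    intro z hz
    rw [interior_Icc] at hz
    rw [(h z).deriv]
    exact hp z (by linarith [hz.2]) (by linarith [h1 z hz.1 hz.2.le])
  have h2 := hm (left_mem_Icc.2 hsc.le) (right_mem_Icc.2 hsc.le) hsc.le
  linarith [hs.2]

theorem nu_le_quarter {x : ℝ} (hx : 4 ≤ x) : nu x ≤ 1 / 4 := by
  have h := H958.x_nu_lt x
  have hn := H156.nu_pos x
  nlinarith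

theorem V_le {x : ℝ} (hx : 4 ≤ x) : V x ≤ 1 / 16 := by
  have h := nu_le_quarter hx
  have hn := H156.nu_pos x
  nlinarith [H958.V_lt_sq x]

theorem b_le {x : ℝ} (hx : 4 ≤ x) : nu x ^ 2 - V x ≤ 2 * V x ^ 2 := by
  have hb := barrier_bot' (c₀ := -4) (c := -x)
    (fun c => SP448.hasDerivAt_poly (-1) 0 0 2 c) (fun c hc hneg => ?_) le_rfl
    (SP448.tendsto_poly (-1) 0 0 2) (by linarith)
  · have hP := H876.Ph_pos (-x)
    have h1 : 0 ≤ -1 * SP448.b (-x) + 0 * SP448.b (-x) ^ 2 + 0 * (SP448.b (-x) * H876.v (-x))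
        + 2 * H876.v (-x) ^ 2 := by
      by_contra hcon
      push Not at hcon
      have := mul_neg_of_neg_of_pos hcon hP
      linarith
    rw [SP448.b_eq] at h1
    have hV : H876.v (-x) = V x := rfl
    rw [hV] at h1
    linarith
  · have hP := H876.Ph_pos c
    have h1 : -1 * SP448.b c + 0 * SP448.b c ^ 2 + 0 * (SP448.b c * H876.v c)
        + 2 * H876.v c ^ 2 < 0 := by
      by_contra hcon
      push Not at hcon
      have := mul_nonneg hcon hP.le
      linarith
    have h3 : 0 < H876.Ph c / H876.m c := div_pos hP (H876.m_pos c)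
    have hV0 : 0 < H876.v c := H876.v_pos c
    have hV1 : H876.v c ≤ 1 / 16 := by
      have := V_le (x := -c) (by linarith)
      unfold V at this
      rwa [neg_neg] at this
    have hB : 2 * H876.v c ^ 2 < SP448.b c := by linarith
    refine mul_nonneg h3.le ?_
    have e : -1 * (2 * H876.v c * (SP448.b c + H876.v c))
        + 0 * (4 * SP448.b c * H876.v c * (SP448.b c + H876.v c) - (1 - H876.v c) * SP448.b c ^ 2)
        + 0 * (2 * H876.v c ^ 2 * (SP448.b c + H876.v c) + (1 - H876.v c) * SP448.b c ^ 2)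
        + 2 * ((1 - H876.v c) * H876.v c * (2 * SP448.b c + H876.v c))
        = H876.v c * (SP448.b c * (2 - 4 * H876.v c) - 2 * H876.v c ^ 2) := by ring
    rw [e]
    refine mul_nonneg hV0.le ?_
    have h4 : 2 * H876.v c ^ 2 * (2 - 4 * H876.v c) ≤ SP448.b c * (2 - 4 * H876.v c) :=
      mul_le_mul_of_nonneg_right hB.le (by linarith)
    nlinarith [sq_nonneg (H876.v c)]

/-! ### `w'` from below -/

/-- `-(2 r''²) ≤ nu w'` -/
theorem nu_w1_ge (x : ℝ) : -(2 * r2 x ^ 2) ≤ nu x * w1 x := by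
  have h1 := SP448.nu_mul_w1 x
  have h2 := SP448.C_pos (-x)
  rw [SP448.b_eq] at h2
  have h7 : 0 ≤ (2 * V x ^ 2 - (1 - V x) * (nu x ^ 2 - V x)) * r x ^ 2 := by
    refine mul_nonneg ?_ (sq_nonneg _)
    unfold V at *
    exact h2.le
  rw [h1]
  linarith

/-- `(19/10) V³ r² - 2 r''² ≤ nu w'` for `4 ≤ x` -/
theorem nu_w1_ge' {x : ℝ} (hx : 4 ≤ x) :
    19 / 10 * (V x * (V x * V x) * (r x * r x)) - 2 * r2 x ^ 2 ≤ nu x * w1 x := by
  have h1 := SP448.nu_mul_w1 x
  have h2 := b_le hx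
  have h3 := H958.b_ge x
  have hV := SP448.V_pos x
  rw [h1]
  have h4 : 19 / 10 * (V x * (V x * V x)) ≤ 2 * V x ^ 2 - (1 - V x) * (nu x ^ 2 - V x) := by
    have := mul_le_mul_of_nonneg_left h3 hV.le
    nlinarith
  have h5 := mul_le_mul_of_nonneg_right h4 (sq_nonneg (r x))
  nlinarith

/-! ### the tails -/

theorem r2_right {x : ℝ} (hx : 9 ≤ x) : r2 x ≤ 21 / 500 * nu x := by
  have h1 := H721.r2_le_right x
  have h2 := H721.r1_right hx
  rw [e_r2, e_m, e_r1] at h1
  rw [e_r1] at h2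
  have hn := H156.nu_pos x
  nlinarith

theorem r2_left {x : ℝ} (hx : x ≤ -5) : r2 x ≤ 6 / 130 ∧ r1 x ≤ 1 / 26 := by
  have h1 := H721.r2_le_left x
  have h2 := H721.r1_left hx
  rw [e_r2, e_r1] at h1
  rw [e_r1] at h2
  constructor <;> linarith

theorem Ps1_left {x : ℝ} (hx : x ≤ -5) : Ps1 x ≤ 1 / 100 := by
  obtain ⟨h1, h2⟩ := r2_left hx
  have h3 := nu_w1_ge x
  have h4 := H958.nu_ge hx
  have h5 := H156.r2_pos x
  have h6 := H156.r1_pos x
  have h7 : r2 x ^ 2 ≤ (6 / 130) ^ 2 := pow_le_pow_left₀ h5.le h1 2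
  have h8 : r1 x * r2 x ≤ 1 / 26 * (6 / 130) := mul_le_mul h2 h1 h5.le (by norm_num)
  have h9 : -(1 / 1000) ≤ w1 x := by
    by_contra hcon
    push Not at hcon
    nlinarith
  unfold Ps1
  linarith

/-! ### N2: `Ps1 ≤ (53/1250) nu` for all `x` -/

theorem N2 (x : ℝ) : Ps1 x ≤ 53 / 1250 * nu x := by
  have hn := H156.nu_pos x
  rcases le_total x (-5) with hx | hx
  · have h1 := Ps1_left hx
    have h4 := H958.nu_ge hx
    linarith
  · rcases le_total x 4 with hx' | hx'
    · have h := cert2 (e := .c 53 1250 * .m - (.c 93 50 * (eR1 * eR2) - .c 57 100 *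
          (.c 2 1 * (eR1 * eR2) + .c 2 1 * (.r * (eR1 * eV)) - (.r * .r) * (eL * (.m * .m - eV)))))
        envOK_nil 64 [(8, 40), (4, 29), (2, 49), (1, 42)] (by decide) (by decide +kernel)
        (x := x) (by norm_num; linarith) (by norm_num [tot]; linarith)
      simp only [ev_sub, ev_add, ev_mul, ev_c, ev_m, ev_r, ev_eR2, ev_eR1, ev_eV, ev_eL] at h
      push_cast at h
      rw [e_m, e_r2, e_r, e_V, e_L, e_r1] at h
      unfold Ps1 SP448.w1
      linarith
    · have hq := nu_w1_ge' hx'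
      have h0 := H156.r2_pos x
      have h1 := H156.r1_lt_half x
      suffices h : nu x * Ps1 x ≤ nu x * (53 / 1250 * nu x) from le_of_mul_le_mul_left h hn
      have hP : nu x * Ps1 x ≤ 93 / 50 * (r1 x * (r2 x * nu x))
          - 1083 / 1000 * (V x * (V x * V x) * (r x * r x)) + 57 / 50 * (r2 x * r2 x) := by
        unfold Ps1
        linarith
      rcases le_total x 9 with hx9 | hx9
      · have h := cert2 (e := .c 53 1250 * (.m * .m) - (.c 93 50 * (eR1 * (eR2 * .m))
            - .c 1083 1000 * (eV * (eV * eV) * (.r * .r)) + .c 57 50 * (eR2 * eR2)))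
          envOK_nil 640 [(1, 37), (2, 141), (1, 1)] (by decide) (by decide +kernel)
          (x := x) (by norm_num; linarith) (by norm_num [tot]; linarith)
        simp only [ev_sub, ev_add, ev_mul, ev_c, ev_m, ev_r, ev_eR2, ev_eR1, ev_eV, ev_eL] at h
        push_cast at h
        rw [e_m, e_r2, e_r, e_V, e_r1] at h
        linarith
      · have h2 := r2_right hx9
        have h3 : 0 ≤ V x * (V x * V x) * (r x * r x) := by
          have := SP448.V_pos x
          have := mul_self_nonneg (r x)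
          positivity
        have h4 : r1 x * (r2 x * nu x) ≤ 1 / 2 * (21 / 500 * nu x * nu x) :=
          mul_le_mul h1.le (mul_le_mul_of_nonneg_right h2 hn.le) (by positivity) (by norm_num)
        have h5 : r2 x * r2 x ≤ (21 / 500 * nu x) * (21 / 500 * nu x) :=
          mul_le_mul h2 h2 h0.le (by positivity)
        nlinarith [mul_pos hn hn]

/-! ### N3: `Ps1 ≤ 27/2000` for all `x` -/

theorem N3 (x : ℝ) : Ps1 x ≤ 27 / 2000 := by
  rcases le_total x (-5) with hx | hx
  · have h1 := Ps1_left hx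
    linarith
  · rcases le_total x 4 with hx' | hx'
    · have h := cert2 (e := .c 27 2000 - (.c 93 50 * (eR1 * eR2) - .c 57 100 *
          (.c 2 1 * (eR1 * eR2) + .c 2 1 * (.r * (eR1 * eV)) - (.r * .r) * (eL * (.m * .m - eV)))))
        envOK_nil 64 [(4, 95), (2, 98)] (by decide) (by decide +kernel)
        (x := x) (by norm_num; linarith) (by norm_num [tot]; linarith)
      simp only [ev_sub, ev_add, ev_mul, ev_c, ev_m, ev_r, ev_eR2, ev_eR1, ev_eV, ev_eL] at h
      push_cast at h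
      rw [e_m, e_r2, e_r, e_V, e_L, e_r1] at h
      unfold Ps1 SP448.w1
      linarith
    · have h1 := N2 x
      have h2 := nu_le_quarter hx'
      linarith

/-! ### N4: `Ps1 + r' r'' ≤ (357/5000) nu` on `[0, 4]` -/

theorem N4 {x : ℝ} (hx : 0 ≤ x) (hx' : x ≤ 4) : Ps1 x + r1 x * r2 x ≤ 357 / 5000 * nu x := by
  have h := cert2 (e := .c 357 5000 * .m - (.c 93 50 * (eR1 * eR2) - .c 57 100 *
      (.c 2 1 * (eR1 * eR2) + .c 2 1 * (.r * (eR1 * eV)) - (.r * .r) * (eL * (.m * .m - eV))))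
      - eR1 * eR2)
    envOK_nil 384 [(4, 23), (2, 51), (1, 62)] (by decide) (by decide +kernel)
    (x := x) (by norm_num; linarith) (by norm_num [tot]; linarith)
  simp only [ev_sub, ev_add, ev_mul, ev_c, ev_m, ev_r, ev_eR2, ev_eR1, ev_eV, ev_eL] at h
  push_cast at h
  rw [e_m, e_r2, e_r, e_V, e_L, e_r1] at h
  unfold Ps1 SP448.w1
  linarith

/-! ### N5: `r' r''' + r''² ≤ 0` on `[0, 4]` -/

/-- `r'''` -/
noncomputable def r3 (x : ℝ) : ℝ := 2 * r1 x + x * r2 x - lm x * nu x

theorem N5 {x : ℝ} (hx : 0 ≤ x) (hx' : x ≤ 4) : r1 x * r3 x + r2 x * r2 x ≤ 0 := by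
  have h := cert2 (e := -(eR1 * (.c 2 1 * eR1 + .x * eR2 - eL * .m) + eR2 * eR2))
    envOK_nil 384 [(4, 45), (2, 38)] (by decide) (by decide +kernel)
    (x := x) (by norm_num; linarith) (by norm_num [tot]; linarith)
  simp only [ev_sub, ev_add, ev_mul, ev_neg, ev_c, ev_m, ev_r, ev_x, ev_eR2, ev_eR1, ev_eV, ev_eL] at h
  push_cast at h
  rw [e_m, e_r2, e_L, e_r1] at h
  unfold r3
  linarith

/-! ### N6: `r' r'' ≤ (29/1000) nu` for `4 ≤ x` -/

theorem N6 {x : ℝ} (hx : 4 ≤ x) : r1 x * r2 x ≤ 29 / 1000 * nu x := by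
  have hn := H156.nu_pos x
  rcases le_total x 9 with hx9 | hx9
  · have h := cert2 (e := .c 29 1000 * .m - eR1 * eR2)
      envOK_nil 640 [(2, 160)] (by decide) (by decide +kernel)
      (x := x) (by norm_num; linarith) (by norm_num [tot]; linarith)
    simp only [ev_sub, ev_add, ev_mul, ev_c, ev_m, ev_r, ev_eR2, ev_eR1, ev_eV, ev_eL] at h
    push_cast at h
    rw [e_m, e_r2, e_r1] at h
    linarith
  · have h2 := r2_right hx9
    have h1 := H156.r1_lt_half x
    have h4 : r1 x * r2 x ≤ 1 / 2 * (21 / 500 * nu x) :=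
      mul_le_mul h1.le h2 (H156.r2_pos x).le (by norm_num)
    linarith

/-! ### N7 (`x ≤ 3`) -/

theorem N7a {x : ℝ} (hx : x ≤ 3) : r2 x * (1 - r1 x) + 27 / 2000 ≤ 9 / 100 * nu x := by
  rcases le_total x (-5) with hx5 | hx5
  · obtain ⟨h1, h2⟩ := r2_left hx5
    have h4 := H958.nu_ge hx5
    have h5 := H156.r2_pos x
    have h6 := H156.r1_pos x
    nlinarith
  · have h := cert2 (e := .c 9 100 * .m - eR2 * (.c 1 1 - eR1) - .c 27 2000)
      envOK_nil 64 [(8, 37), (4, 46), (2, 16)] (by decide) (by decide +kernel)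
      (x := x) (by norm_num; linarith) (by norm_num [tot]; linarith)
    simp only [ev_sub, ev_add, ev_mul, ev_c, ev_m, ev_r, ev_eR2, ev_eR1, ev_eV, ev_eL] at h
    push_cast at h
    rw [e_m, e_r2, e_r1] at h
    linarith

theorem N7b {x : ℝ} (hx : x ≤ 3) : r2 x * (153 / 250 - r1 x) + 27 / 2000 ≤ 353 / 5000 * nu x := by
  rcases le_total x (-5) with hx5 | hx5
  · obtain ⟨h1, h2⟩ := r2_left hx5
    have h4 := H958.nu_ge hx5
    have h5 := H156.r2_pos x
    have h6 := H156.r1_pos x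
    nlinarith
  · have h := cert2 (e := .c 353 5000 * .m - eR2 * (.c 153 250 - eR1) - .c 27 2000)
      envOK_nil 64 [(8, 62), (4, 4)] (by decide) (by decide +kernel)
      (x := x) (by norm_num; linarith) (by norm_num [tot]; linarith)
    simp only [ev_sub, ev_add, ev_mul, ev_c, ev_m, ev_r, ev_eR2, ev_eR1, ev_eV, ev_eL] at h
    push_cast at h
    rw [e_m, e_r2, e_r1] at h
    linarith

/-! ### N8 (`3 ≤ x`) -/

theorem N8a {x : ℝ} (hx : 3 ≤ x) : r2 x * (1 - r1 x) ≤ 119 / 2500 * nu x := by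
  have hn := H156.nu_pos x
  rcases le_total x 9 with hx9 | hx9
  · have h := cert2 (e := .c 119 2500 * .m - eR2 * (.c 1 1 - eR1))
      envOK_nil 576 [(4, 96)] (by decide) (by decide +kernel)
      (x := x) (by norm_num; linarith) (by norm_num [tot]; linarith)
    simp only [ev_sub, ev_add, ev_mul, ev_c, ev_m, ev_r, ev_eR2, ev_eR1, ev_eV, ev_eL] at h
    push_cast at h
    rw [e_m, e_r2, e_r1] at h
    linarith
  · have h2 := r2_right hx9
    have h1 := H156.r1_pos x
    have h3 := H156.r2_pos x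
    nlinarith

theorem N8b {x : ℝ} (hx : 3 ≤ x) : r2 x * (429 / 500 - r1 x) ≤ 81 / 2000 * nu x := by
  have hn := H156.nu_pos x
  rcases le_total x 9 with hx9 | hx9
  · have h := cert2 (e := .c 81 2000 * .m - eR2 * (.c 429 500 - eR1))
      envOK_nil 576 [(4, 96)] (by decide) (by decide +kernel)
      (x := x) (by norm_num; linarith) (by norm_num [tot]; linarith)
    simp only [ev_sub, ev_add, ev_mul, ev_c, ev_m, ev_r, ev_eR2, ev_eR1, ev_eV, ev_eL] at h
    push_cast at h
    rw [e_m, e_r2, e_r1] at h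
    linarith
  · have h2 := r2_right hx9
    have h1 := H156.r1_pos x
    have h3 := H156.r2_pos x
    have h4 : r2 x * (429 / 500 - r1 x) ≤ r2 x * (429 / 500) := by nlinarith
    nlinarith

/-! ### values of `r'` -/

theorem r1_mono : Monotone r1 := by
  apply monotone_of_deriv_nonneg (fun x => (H156.hasDerivAt_r1 x).differentiableAt)
  intro x
  rw [(H156.hasDerivAt_r1 x).deriv]
  exact (H156.r2_pos x).le

theorem r1_ge_0 {x : ℝ} (hx : 0 ≤ x) : 153 / 500 ≤ r1 x := by
  have h := cert2 (e := eR1 - .c 153 500) envOK_nil 384 [(1, 1)] (by decide) (by decide +kernel)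
    (x := 0) (by norm_num) (by norm_num [tot])
  simp only [ev_sub, ev_c, ev_eR1] at h
  push_cast at h
  rw [e_r1] at h
  have := r1_mono hx
  linarith

theorem r1_ge_3 {x : ℝ} (hx : 3 ≤ x) : 429 / 1000 ≤ r1 x := by
  have h := cert2 (e := eR1 - .c 429 1000) envOK_nil 576 [(1, 1)] (by decide) (by decide +kernel)
    (x := 3) (by norm_num) (by norm_num [tot])
  simp only [ev_sub, ev_c, ev_eR1] at h
  push_cast at h
  rw [e_r1] at h
  have := r1_mono hx
  linarith

end Vale.Agent.P254.SP.H455
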