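import Vale.Agent.P254.SP.H455.KtF
import Vale.Agent.P254.SP.H958.Fin

/-!
# The combined commutator kernel, `0 ≤ x` (P254, block SP, helper455)

`ktot = ck - (43/100) (θ[x,y] - θ'(x)) - (1/2) (r'(y)² - r'(x)²)`, `θ = r (1 + r')`.
`ktot(x,y)² ≤ (1/20) r'(x) (wσ x y - 1)` for `0 ≤ x`, all `y`.
-/

set_option linter.all false

open MeasureTheory Set Filter Topology

namespace Vale.Agent.P254.SP.H455

open Vale.Agent.P254.SP
open Vale.Agent.P254.SP.H958

/-- `(y - x) ktot(x,y)` -/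
noncomputable def kT (r r1 r2 : ℝ → ℝ) (a b : ℝ) : ℝ :=
  cK r r1 r2 a b
    - 43 / 100 * ((r b + r b * r1 b) - (r a + r a * r1 a)
        - (r1 a + (r1 a ^ 2 + r a * r2 a)) * (b - a))
    - 1 / 2 * (r1 b ^ 2 - r1 a ^ 2) * (b - a)

/-- `(93/100) r'² - (57/100) (r' + r r'')` -/
noncomputable def Ps (r r1 r2 : ℝ → ℝ) (x : ℝ) : ℝ :=
  93 / 100 * r1 x ^ 2 - 57 / 100 * (r1 x + r x * r2 x)

/-- the derivative of `kT` in the second variable -/
noncomputable def Dk (r r1 r2 : ℝ → ℝ) (a b : ℝ) : ℝ :=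
  (Ps r r1 r2 a - Ps r r1 r2 b) + 2 * r2 b * (r1 b * (b - a) / 2 - (r b - r a))

theorem hasDerivAt_kT {r r1 r2 : ℝ → ℝ} (hr : ∀ x, HasDerivAt r (r1 x) x)
    (hr1 : ∀ x, HasDerivAt r1 (r2 x) x) (a b : ℝ) :
    HasDerivAt (fun b => kT r r1 r2 a b) (Dk r r1 r2 a b) b := by
  have hi : HasDerivAt (fun b : ℝ => b - a) 1 b := (hasDerivAt_id b).sub_const a
  have h1 : HasDerivAt (fun b => r b - r a - r1 a * (b - a)) (r1 b - r1 a * 1) b :=
    ((hr b).sub_const (r a)).fun_sub (hi.const_mul (r1 a))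
  have h2 : HasDerivAt (fun b => r1 b - r1 a - r2 a * (b - a)) (r2 b - r2 a * 1) b :=
    ((hr1 b).sub_const (r1 a)).fun_sub (hi.const_mul (r2 a))
  have h3 : HasDerivAt (fun b => r b - r a - r1 b * (b - a)) (r1 b - (r2 b * (b - a) + r1 b * 1)) b :=
    ((hr b).sub_const (r a)).fun_sub ((hr1 b).fun_mul hi)
  have h4 := (h1.fun_add (h2.const_mul (r a))).fun_sub ((hr1 b).fun_mul h3)
  have h5 : HasDerivAt (fun b => (r b + r b * r1 b) - (r a + r a * r1 a)
        - (r1 a + (r1 a ^ 2 + r a * r2 a)) * (b - a))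
      (r1 b + (r1 b * r1 b + r b * r2 b) - (r1 a + (r1 a ^ 2 + r a * r2 a)) * 1) b :=
    (((hr b).fun_add ((hr b).fun_mul (hr1 b))).sub_const _).fun_sub (hi.const_mul _)
  have h6 : HasDerivAt (fun b => 1 / 2 * (r1 b ^ 2 - r1 a ^ 2) * (b - a))
      (1 / 2 * (2 * r1 b * r2 b) * (b - a) + 1 / 2 * (r1 b ^ 2 - r1 a ^ 2) * 1) b := by
    have h7 := ((((hr1 b).fun_pow 2).sub_const (r1 a ^ 2)).const_mul (1 / 2 : ℝ)).fun_mul hi
    refine h7.congr_deriv ?_
    push_cast
    ring
  have h8 := (h4.fun_sub (h5.const_mul (43 / 100 : ℝ))).fun_sub h6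
  refine h8.congr_deriv ?_
  unfold Dk Ps
  ring

theorem kT_self (r r1 r2 : ℝ → ℝ) (a : ℝ) : kT r r1 r2 a a = 0 := by
  unfold kT cK; ring

variable (P : F1)

/-- `log t'` -/
noncomputable def lL (x : ℝ) : ℝ := Real.log (P.L x)

theorem hasDerivAt_lL (x : ℝ) : HasDerivAt (lL P) (nuP P x) x := hasDerivAt_logL P x

/-- `Ps` for `P` -/
noncomputable def PsP (x : ℝ) : ℝ := Ps P.r P.r' P.r'' x

theorem hasDerivAt_PsP (x : ℝ) : HasDerivAt (PsP P) (Ps1 x) x := by
  have h := (((P.hr' x).fun_pow 2).const_mul (93 / 100 : ℝ)).fun_sub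
    ((hasDerivAt_wP P x).const_mul (57 / 100 : ℝ))
  refine h.congr_deriv ?_
  have e1 : P.r' x = H156.r1 x := congrFun (SP448.r'_eq P) x
  have e2 : P.r'' x = H156.r2 x := congrFun (SP448.r''_eq P) x
  rw [e1, e2]
  unfold Ps1
  push_cast
  ring

theorem mono_of {f f' : ℝ → ℝ} (h : ∀ x, HasDerivAt f (f' x) x) (h0 : ∀ x, 0 ≤ f' x) {u v : ℝ}
    (huv : u ≤ v) : f u ≤ f v := by
  have : Monotone f := by
    apply monotone_of_deriv_nonneg (fun x => (h x).differentiableAt)
    intro x; rw [(h x).deriv]; exact h0 x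
  exact this huv

theorem mono_on {f f' : ℝ → ℝ} (h : ∀ x, HasDerivAt f (f' x) x) {u v : ℝ}
    (h0 : ∀ x, u ≤ x → x ≤ v → 0 ≤ f' x) (huv : u ≤ v) : f u ≤ f v := by
  have hm : MonotoneOn f (Icc u v) := by
    apply monotoneOn_of_deriv_nonneg (convex_Icc u v)
      (fun z _ => (h z).continuousAt.continuousWithinAt)
      (fun z _ => (h z).differentiableAt.differentiableWithinAt)
    intro z hz
    rw [interior_Icc] at hz
    rw [(h z).deriv]
    exact h0 z hz.1.le hz.2.le
  exact hm (left_mem_Icc.2 huv) (right_mem_Icc.2 huv) huv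

/-- (c1) -/
theorem c1 {u v : ℝ} (h : u ≤ v) : PsP P v - PsP P u ≤ 53 / 1250 * (lL P v - lL P u) := by
  have := mono_of (f := fun x => 53 / 1250 * lL P x - PsP P x)
    (fun x => ((hasDerivAt_lL P x).const_mul (53 / 1250 : ℝ)).fun_sub (hasDerivAt_PsP P x))
    (fun x => by have := N2 x; rw [nuP_nu]; linarith) h
  linarith

/-- (c2) -/
theorem c2 {u v : ℝ} (h : u ≤ v) : PsP P v - PsP P u ≤ 27 / 2000 * (v - u) := by
  have := mono_of (f := fun x => 27 / 2000 * x - PsP P x)
    (fun x => ((hasDerivAt_id x).const_mul (27 / 2000 : ℝ)).fun_sub (hasDerivAt_PsP P x))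
    (fun x => by have := N3 x; linarith) h
  linarith

/-- (c3) -/
theorem c3 {u v : ℝ} (h : u ≤ v) : PsP P u - PsP P v ≤ 27 / 500 * (lL P v - lL P u) := by
  have := mono_of (f := fun x => 27 / 500 * lL P x + PsP P x)
    (fun x => ((hasDerivAt_lL P x).const_mul (27 / 500 : ℝ)).fun_add (hasDerivAt_PsP P x))
    (fun x => by
      have h1 := H958.w1_le_nu x
      have h2 := mul_pos (H156.r1_pos x) (H156.r2_pos x)
      have h3 := H156.nu_pos x
      rw [nuP_nu]; unfold Ps1; linarith) h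
  linarith

/-- (c5) -/
theorem c5 {u v : ℝ} (h : u ≤ v) : nuP P v * (v - u) ≤ lL P v - lL P u ∧
    lL P v - lL P u ≤ nuP P u * (v - u) := by
  constructor
  · exact slope_le (hasDerivAt_lL P) (nuP_anti P) h
  · have := mono_on (f := fun x => nuP P u * x - lL P x) (u := u) (v := v)
      (fun x => ((hasDerivAt_id x).const_mul (nuP P u)).fun_sub (hasDerivAt_lL P x))
      (fun x hx _ => by have := nuP_anti P hx; linarith) h
    linarith

theorem r'_mono : Monotone P.r' := by
  rw [SP448.r'_eq P]; exact r1_mono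

/-- (c6) -/
theorem c6 {u v : ℝ} (h : u ≤ v) : P.r' u * (v - u) ≤ P.r v - P.r u ∧
    P.r v - P.r u ≤ P.r' v * (v - u) := by
  constructor
  · have := mono_on (f := fun x => P.r x - P.r' u * x) (u := u) (v := v)
      (fun x => (P.hr x).fun_sub ((hasDerivAt_id x).const_mul (P.r' u)))
      (fun x hx _ => by have := r'_mono P hx; linarith) h
    linarith
  · have := mono_on (f := fun x => P.r' v * x - P.r x) (u := u) (v := v)
      (fun x => ((hasDerivAt_id x).const_mul (P.r' v)).fun_sub (P.hr x))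
      (fun x _ hx => by have := r'_mono P hx; linarith) h
    linarith

theorem r'_ge_0 {x : ℝ} (hx : 0 ≤ x) : 153 / 500 ≤ P.r' x := by
  rw [SP448.r'_eq P]; exact r1_ge_0 hx
theorem r'_ge_3 {x : ℝ} (hx : 3 ≤ x) : 429 / 1000 ≤ P.r' x := by
  rw [SP448.r'_eq P]; exact r1_ge_3 hx

/-- (c4) -/
theorem c4 {a y : ℝ} (ha : 0 ≤ a) (hay : a ≤ y) (hy : y ≤ 4) :
    (PsP P y - PsP P a) + P.r' y * P.r'' y * (y - a) ≤ 357 / 5000 * (lL P y - lL P a) := by
  have e1 : P.r' = H156.r1 := SP448.r'_eq P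
  have e2 : P.r'' = H156.r2 := SP448.r''_eq P
  have hr3 : ∀ x, HasDerivAt P.r'' (r3 x) x := by
    intro x
    rw [e2]
    have h := ((H156.hasDerivAt_r x).fun_add ((hasDerivAt_id x).fun_mul (H156.hasDerivAt_r1 x))).fun_sub
      (H156.hasDerivAt_lm x)
    have e : H156.r2 = fun x => H156.r x + id x * H156.r1 x - H156.lm x := by
      funext z
      have := P.model2 z
      rw [e1, e2, SP448.L_eq P, SP448.r_eq P] at this
      simp only [id]
      linarith
    rw [e]
    refine h.congr_deriv ?_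
    unfold r3
    simp only [id]
    ring
  have := mono_on (f := fun x => 357 / 5000 * lL P x - (PsP P x + P.r' x * P.r'' x * (x - a)))
    (u := a) (v := y)
    (fun x => ((hasDerivAt_lL P x).const_mul (357 / 5000 : ℝ)).fun_sub
      ((hasDerivAt_PsP P x).fun_add (((P.hr' x).fun_mul (hr3 x)).fun_mul
        ((hasDerivAt_id x).sub_const a))))
    (fun x hx1 hx2 => by
      have h4 := N4 (x := x) (by linarith) (by linarith)
      have h5 := N5 (x := x) (by linarith) (by linarith)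
      have h6 : (H156.r1 x * r3 x + H156.r2 x * H156.r2 x) * (x - a) ≤ 0 :=
        mul_nonpos_of_nonpos_of_nonneg h5 (by linarith)
      rw [nuP_nu, e1, e2]
      nlinarith) hay
  simp only [sub_self, mul_zero, add_zero] at this
  linarith

/-- case A (`0 ≤ a ≤ b`) at the level of the derivative -/
theorem caseA {a b : ℝ} (ha : 0 ≤ a) (hab : a ≤ b) :
    |Dk P.r P.r' P.r'' a b| ≤ 357 / 5000 * (lL P b - lL P a) := by
  have hρ := (P.r''_pos b).le
  obtain ⟨h6, h7⟩ := c6 P hab
  obtain ⟨h8, h9⟩ := c5 P hab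
  have hd : 0 ≤ b - a := sub_nonneg.2 hab
  have hS := r'_ge_0 P ha
  have hSb := P.r'_lt b
  have hSb0 := P.r'_pos b
  have hmon : 0 ≤ lL P b - lL P a := by
    have := mul_nonneg (nuP_pos P b).le hd
    linarith
  have eD : Dk P.r P.r' P.r'' a b = (PsP P a - PsP P b)
      + 2 * P.r'' b * (P.r' b * (b - a) / 2 - (P.r b - P.r a)) := rfl
  rw [abs_le, eD]
  constructor
  · -- lower
    have h10 : P.r'' b * (P.r b - P.r a) ≤ P.r'' b * (P.r' b * (b - a)) :=
      mul_le_mul_of_nonneg_left h7 hρ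
    have h11 : (PsP P b - PsP P a) + P.r' b * P.r'' b * (b - a) ≤ 357 / 5000 * (lL P b - lL P a) := by
      rcases le_total b 4 with hb | hb
      · exact c4 P ha hab hb
      · have h12 := c1 P hab
        have h13 : P.r' b * P.r'' b ≤ 29 / 1000 * nuP P b := by
          rw [nuP_nu, SP448.r'_eq P, SP448.r''_eq P]; exact N6 hb
        have h14 := mul_le_mul_of_nonneg_right h13 hd
        linarith
    nlinarith
  · -- upper
    have h10 : P.r' b * (b - a) / 2 - (P.r b - P.r a) ≤ 0 := by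
      have : (P.r' b / 2) * (b - a) ≤ P.r' a * (b - a) :=
        mul_le_mul_of_nonneg_right (by linarith) hd
      linarith
    have h11 : 2 * P.r'' b * (P.r' b * (b - a) / 2 - (P.r b - P.r a)) ≤ 0 :=
      mul_nonpos_of_nonneg_of_nonpos (by linarith) h10
    have h12 := c3 P hab
    linarith

/-- case B (`y ≤ a`, `0 ≤ a`) at the level of the derivative -/
theorem caseB {a y : ℝ} (ha : 0 ≤ a) (hya : y ≤ a) :
    |Dk P.r P.r' P.r'' a y| ≤ (1 / 25 + P.r' a / 10) * (nuP P y * (a - y)) := by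
  have hρ := (P.r''_pos y).le
  obtain ⟨h6, h7⟩ := c6 P hya
  obtain ⟨h8, h9⟩ := c5 P hya
  have hd : 0 ≤ a - y := sub_nonneg.2 hya
  have hS := r'_ge_0 P ha
  have hSa := P.r'_lt a
  have hSy := P.r'_lt y
  have hSy0 := P.r'_pos y
  have hn := nuP_pos P y
  have hnd : 0 ≤ nuP P y * (a - y) := mul_nonneg hn.le hd
  have eD : Dk P.r P.r' P.r'' a y = (PsP P a - PsP P y)
      + 2 * P.r'' y * ((P.r a - P.r y) - P.r' y * (a - y) / 2) := by
    have : Dk P.r P.r' P.r'' a y = (PsP P a - PsP P y)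
      + 2 * P.r'' y * (P.r' y * (y - a) / 2 - (P.r y - P.r a)) := rfl
    rw [this]; ring
  rw [abs_le, eD]
  constructor
  · -- lower
    have h10 : 0 ≤ (P.r a - P.r y) - P.r' y * (a - y) / 2 := by
      have : 0 ≤ P.r' y * (a - y) := mul_nonneg hSy0.le hd
      linarith
    have h11 : 0 ≤ 2 * P.r'' y * ((P.r a - P.r y) - P.r' y * (a - y) / 2) :=
      mul_nonneg (by linarith) h10
    have h12 := c3 P hya
    have h13 : 27 / 500 * (nuP P y * (a - y)) ≤ (1 / 25 + P.r' a / 10) * (nuP P y * (a - y)) :=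
      mul_le_mul_of_nonneg_right (by linarith) hnd
    linarith
  · -- upper
    have h10 : 2 * P.r'' y * ((P.r a - P.r y) - P.r' y * (a - y) / 2) ≤
        P.r'' y * (2 * P.r' a - P.r' y) * (a - y) := by
      have := mul_le_mul_of_nonneg_left h7 hρ
      nlinarith
    rcases le_total y 3 with hy | hy
    · have h11 := c2 P hya
      have ea : P.r'' y * (1 - P.r' y) + 27 / 2000 ≤ 9 / 100 * nuP P y := by
        rw [nuP_nu, SP448.r'_eq P, SP448.r''_eq P]; exact N7a hy
      have eb : P.r'' y * (153 / 250 - P.r' y) + 27 / 2000 ≤ 353 / 5000 * nuP P y := by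
        rw [nuP_nu, SP448.r'_eq P, SP448.r''_eq P]; exact N7b hy
      have h12 : P.r'' y * (2 * P.r' a - P.r' y) + 27 / 2000 ≤ (1 / 25 + P.r' a / 10) * nuP P y := by
        have k1 := mul_le_mul_of_nonneg_left ea (sub_nonneg.2 hS)
        have k2 := mul_le_mul_of_nonneg_left eb (sub_nonneg.2 hSa.le)
        linear_combination (500 / 97) * k1 + (500 / 97) * k2
      have h13 := mul_le_mul_of_nonneg_right h12 hd
      linarith
    · have h11 := c1 P hya
      have hS3 := r'_ge_3 P (hy.trans hya)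
      have ea : P.r'' y * (1 - P.r' y) ≤ 119 / 2500 * nuP P y := by
        rw [nuP_nu, SP448.r'_eq P, SP448.r''_eq P]; exact N8a hy
      have eb : P.r'' y * (429 / 500 - P.r' y) ≤ 81 / 2000 * nuP P y := by
        rw [nuP_nu, SP448.r'_eq P, SP448.r''_eq P]; exact N8b hy
      have h12 : P.r'' y * (2 * P.r' a - P.r' y) + 53 / 1250 * nuP P y ≤
          (1 / 25 + P.r' a / 10) * nuP P y := by
        have k1 := mul_le_mul_of_nonneg_left ea (sub_nonneg.2 hS3)
        have k2 := mul_le_mul_of_nonneg_left eb (sub_nonneg.2 hSa.le)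
        linear_combination (1000 / 71) * k1 + (1000 / 71) * k2
      have h13 := mul_le_mul_of_nonneg_right h12 hd
      linarith

/-- the area bound, case A -/
theorem areaA {a b : ℝ} (ha : 0 ≤ a) (hab : a ≤ b) :
    |kT P.r P.r' P.r'' a b| ≤ 357 / 5000 * Ar (lL P) (JP P) a b := by
  have hA : ∀ x, HasDerivAt (fun b => Ar (lL P) (JP P) a b) (lL P x - lL P a) x := by
    intro x
    have h := ((hasDerivAt_JP P x).sub_const (JP P a)).fun_sub
      (((hasDerivAt_id x).sub_const a).const_mul (lL P a))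
    refine h.congr_deriv ?_
    unfold lL
    ring
  have hA0 : Ar (lL P) (JP P) a a = 0 := by unfold Ar; ring
  have hk := fun x => hasDerivAt_kT P.hr P.hr' a x
  have h1 := mono_on (f := fun x => 357 / 5000 * Ar (lL P) (JP P) a x - kT P.r P.r' P.r'' a x)
    (u := a) (v := b) (fun x => ((hA x).const_mul (357 / 5000 : ℝ)).fun_sub (hk x))
    (fun x hx _ => by have := (abs_le.1 (caseA P ha hx)).2; linarith) hab
  have h2 := mono_on (f := fun x => 357 / 5000 * Ar (lL P) (JP P) a x + kT P.r P.r' P.r'' a x)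
    (u := a) (v := b) (fun x => ((hA x).const_mul (357 / 5000 : ℝ)).fun_add (hk x))
    (fun x hx _ => by have := (abs_le.1 (caseA P ha hx)).1; linarith) hab
  simp only [hA0, kT_self] at h1 h2
  rw [abs_le]
  constructor <;> linarith

/-- the area bound, case B -/
theorem areaB {a b : ℝ} (ha : 0 ≤ a) (hba : b ≤ a) :
    |kT P.r P.r' P.r'' a b| ≤ (1 / 25 + P.r' a / 10) * Ar (lL P) (JP P) b a := by
  have hA : ∀ x, HasDerivAt (fun b => Ar (lL P) (JP P) b a) (-(nuP P x * (a - x))) x := by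
    intro x
    have h := ((hasDerivAt_JP P x).const_sub (JP P a)).fun_sub
      ((hasDerivAt_lL P x).fun_mul ((hasDerivAt_id x).const_sub a))
    refine h.congr_deriv ?_
    unfold lL
    simp only [id]
    ring
  have hA0 : Ar (lL P) (JP P) a a = 0 := by unfold Ar; ring
  have hk := fun x => hasDerivAt_kT P.hr P.hr' a x
  set k : ℝ := 1 / 25 + P.r' a / 10 with hkdef
  have h1 := mono_on (f := fun x => -(k * Ar (lL P) (JP P) x a) - kT P.r P.r' P.r'' a x)
    (u := b) (v := a) (fun x => ((hA x).const_mul k).fun_neg.fun_sub (hk x))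
    (fun x _ hx => by
      have := (abs_le.1 (caseB P ha hx)).2
      have e : -(k * -(nuP P x * (a - x))) = k * (nuP P x * (a - x)) := by ring
      rw [e]; rw [← hkdef] at this; linarith) hba
  have h2 := mono_on (f := fun x => -(k * Ar (lL P) (JP P) x a) + kT P.r P.r' P.r'' a x)
    (u := b) (v := a) (fun x => ((hA x).const_mul k).fun_neg.fun_add (hk x))
    (fun x _ hx => by
      have := (abs_le.1 (caseB P ha hx)).1
      have e : -(k * -(nuP P x * (a - x))) = k * (nuP P x * (a - x)) := by ring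
      rw [e]; rw [← hkdef] at this; linarith) hba
  simp only [hA0, kT_self] at h1 h2
  rw [abs_le]
  constructor <;> linarith

/-- the combined kernel, written out -/
noncomputable def kt (x y : ℝ) : ℝ :=
  SP151.ck P x y
    - 43 / 100 * (dd (fun g => P.r g + P.r g * P.r' g)
        (fun g => P.r' g + (P.r' g ^ 2 + P.r g * P.r'' g)) x y
          - (P.r' x + (P.r' x ^ 2 + P.r x * P.r'' x)))
    - 1 / 2 * (P.r' y ^ 2 - P.r' x ^ 2)

theorem kT_eq {x y : ℝ} (h : x ≠ y) : kT P.r P.r' P.r'' x y = (y - x) * kt P x y := by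
  have h3 : x - y ≠ 0 := sub_ne_zero.2 h
  unfold kt kT SP151.ck dd cK
  rw [if_neg h, if_neg h, if_neg h]
  field_simp
  ring

/-- **the combined kernel for `0 ≤ x`** -/
theorem kt_pos {x : ℝ} (hx : 0 ≤ x) (y : ℝ) :
    kt P x y ^ 2 ≤ 1 / 20 * P.r' x * (wσ P x y - 1) := by
  have hs := wσ_ge_one P x y
  have hS := r'_ge_0 P hx
  have hS2 := P.r'_lt x
  rcases lt_trichotomy x y with h | h | h
  · have h1 := le_slack (hasDerivAt_logL P) (nuP_anti P) (fun x => (nuP_pos P x).le)
      (hasDerivAt_t' P) (hasDerivAt_JP P) h (areaA P hx h.le)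
    have h2 := transfer P h.ne (kT_eq P h.ne) h1
    have h3 : 3 * (357 / 5000 : ℝ) ^ 2 ≤ 1 / 20 * P.r' x := by norm_num; linarith
    have := mul_le_mul_of_nonneg_right h3 hs
    linarith
  · subst h
    rw [wσ_self]
    unfold kt SP151.ck dd
    simp
  · have h1 := le_slack (hasDerivAt_logL P) (nuP_anti P) (fun x => (nuP_pos P x).le)
      (hasDerivAt_t' P) (hasDerivAt_JP P) h (areaB P hx h.le)
    have hc : (fun s => Real.log (P.L s)) y + (fun s => Real.log (P.L s)) x
        = Real.log (P.L x) + Real.log (P.L y) := by simp only; ring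
    rw [Sl_comm, hc] at h1
    have h2 := transfer P h.ne' (kT_eq P h.ne') h1
    have h3 : 3 * (1 / 25 + P.r' x / 10) ^ 2 ≤ 1 / 20 * P.r' x := by
      nlinarith [mul_nonneg (sub_nonneg.2 hS) (sub_nonneg.2 hS2.le)]
    have := mul_le_mul_of_nonneg_right h3 hs
    linarith

end Vale.Agent.P254.SP.H455
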